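import Vale.Agent.P097.H128.NZ.Defs

/-! # P097 / program NZ, package NZ-G (helper870)
A zero free `2π`-periodic entire function of finite order, real on the reals, is constant. -/

set_option linter.all false

open Complex Metric Filter Topology Set

namespace Vale.Agent.P097.H870

/-- entire logarithm -/
theorem exists_entire_log (R : ℂ → ℂ) (hR : Differentiable ℂ R) (h0 : ∀ z, R z ≠ 0) :
    ∃ g : ℂ → ℂ, (∀ z, HasDerivAt g (deriv R z / R z) z) ∧ ∀ z, R z = Complex.exp (g z) := by
  have hd : Differentiable ℂ (fun z => deriv R z / R z) := by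
    have h1 : Differentiable ℂ (deriv R) := by
      have := (hR.differentiableOn (s := univ)).deriv isOpen_univ
      exact fun z => (this z (mem_univ z)).differentiableAt univ_mem
    exact h1.div hR h0
  obtain ⟨g, hg0, hg⟩ := hd.isExactOn_univ.with_val_at 0 (Complex.log (R 0))
  have hg' : ∀ z, HasDerivAt g (deriv R z / R z) z := fun z => hg z (mem_univ z)
  refine ⟨g, hg', ?_⟩
  have key : ∀ z, HasDerivAt (fun w => R w * Complex.exp (-g w)) 0 z := by
    intro z
    have h1 := (hR z).hasDerivAt.mul ((hg' z).neg.cexp)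
    have h2 : deriv R z * Complex.exp (-g z) + R z * (Complex.exp (-g z) * -(deriv R z / R z)) = 0 := by
      have h3 : R z * (deriv R z / R z) = deriv R z := mul_div_cancel₀ _ (h0 z)
      linear_combination (-Complex.exp (-g z)) * h3
    rw [← h2]
    exact h1
  have hc : ∀ z, R z * Complex.exp (-g z) = R 0 * Complex.exp (-g 0) := by
    intro z
    exact is_const_of_deriv_eq_zero (fun w => (key w).differentiableAt) (fun w => (key w).deriv) z 0
  intro z
  have h2 := hc z
  rw [hg0, Complex.exp_neg, Complex.exp_neg, Complex.exp_log (h0 0), mul_inv_cancel₀ (h0 0)] at h2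
  field_simp [Complex.exp_ne_zero] at h2
  exact h2

/-- growth of the logarithm forces it to be a polynomial -/
theorem iteratedDeriv_zero_of_re_le (g : ℂ → ℂ) (hg : Differentiable ℂ g) (C : ℝ) (k : ℕ)
    (h : ∀ z, (g z).re ≤ C * (1 + ‖z‖ ^ k)) (w : ℂ) : iteratedDeriv (k + 1) g w = 0 := by
  set C' : ℝ := max C 1 with hC'
  have hC1 : 1 ≤ C' := le_max_right _ _
  have h' : ∀ z, (g z).re ≤ C' * (1 + ‖z‖ ^ k) := fun z =>
    (h z).trans (mul_le_mul_of_nonneg_right (le_max_left _ _) (by positivity))
  set D : ℝ := 4 * C' * 4 ^ k + 3 * ‖g 0‖ with hD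
  have hD0 : 0 ≤ D := by positivity
  have bound : ∀ r : ℝ, ‖w‖ + 1 ≤ r → ‖iteratedDeriv (k + 1) g w‖ ≤ (k + 1).factorial * D / r := by
    intro r hr
    have hr1 : 1 ≤ r := by linarith [norm_nonneg w]
    have hr0 : 0 < r := by linarith
    have hs : ∀ z ∈ sphere w r, ‖g z‖ ≤ D * r ^ k := by
      intro z hz
      have hz2 : ‖z‖ ≤ 2 * r := by
        have h1 : ‖z - w‖ = r := by simpa [dist_eq_norm] using hz
        have h2 : ‖z‖ ≤ ‖z - w‖ + ‖w‖ := by simpa using norm_add_le (z - w) w
        linarith
      have hM : (0 : ℝ) < 2 * C' * (4 * r) ^ k := by positivity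
      have hmaps : Set.MapsTo g (ball 0 (4 * r)) {z | z.re ≤ 2 * C' * (4 * r) ^ k} := by
        intro x hx
        have hx1 : ‖x‖ < 4 * r := by simpa using hx
        have hx2 : ‖x‖ ^ k ≤ (4 * r) ^ k := pow_le_pow_left₀ (norm_nonneg _) hx1.le k
        have hx3 : (1 : ℝ) ≤ (4 * r) ^ k := one_le_pow₀ (by linarith)
        show (g x).re ≤ _
        calc (g x).re ≤ C' * (1 + ‖x‖ ^ k) := h' x
          _ ≤ C' * ((4 * r) ^ k + (4 * r) ^ k) := by gcongr
          _ = 2 * C' * (4 * r) ^ k := by ring
      have hbc := Complex.borelCaratheodory hM (hg.differentiableOn (s := ball 0 (4 * r))) hmaps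
        (by positivity) (z := z) (by simpa using (by linarith : ‖z‖ < 4 * r))
      have h4 : 0 < 4 * r - ‖z‖ := by linarith
      have e1 : 2 * (2 * C' * (4 * r) ^ k) * ‖z‖ / (4 * r - ‖z‖) ≤ 2 * (2 * C' * (4 * r) ^ k) := by
        rw [div_le_iff₀ h4]
        apply mul_le_mul_of_nonneg_left _ (by positivity)
        linarith
      have e2 : ‖g 0‖ * (4 * r + ‖z‖) / (4 * r - ‖z‖) ≤ 3 * ‖g 0‖ := by
        rw [div_le_iff₀ h4]
        nlinarith [norm_nonneg (g 0)]
      have e3 : (1 : ℝ) ≤ r ^ k := one_le_pow₀ hr1
      calc ‖g z‖ ≤ 2 * (2 * C' * (4 * r) ^ k) + 3 * ‖g 0‖ := by linarith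
        _ = 4 * C' * 4 ^ k * r ^ k + 3 * ‖g 0‖ * 1 := by rw [mul_pow]; ring
        _ ≤ 4 * C' * 4 ^ k * r ^ k + 3 * ‖g 0‖ * r ^ k := by gcongr
        _ = D * r ^ k := by rw [hD]; ring
    have := Complex.norm_iteratedDeriv_le_of_forall_mem_sphere_norm_le (k + 1) hr0
      (hg.diffContOnCl (s := ball w r)) hs
    refine this.trans (le_of_eq ?_)
    have hrk : r ^ k ≠ 0 := by positivity
    rw [pow_succ, div_eq_div_iff (by positivity) (by positivity)]
    ring
  have hlim : Tendsto (fun r : ℝ => (k + 1).factorial * D / r) atTop (𝓝 0) :=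
    tendsto_const_nhds.div_atTop tendsto_id
  have hle : ‖iteratedDeriv (k + 1) g w‖ ≤ 0 :=
    ge_of_tendsto hlim (eventually_atTop.2 ⟨‖w‖ + 1, bound⟩)
  simpa using hle

/-- a periodic entire function with a vanishing iterated derivative is constant -/
theorem deriv_zero_of_periodic (p : ℂ) (hp : p ≠ 0) (n : ℕ) : ∀ F : ℂ → ℂ, Differentiable ℂ F →
    (∀ z, F (z + p) = F z) → (∀ z, iteratedDeriv n F z = 0) → ∀ z, deriv F z = 0 := by
  induction n with
  | zero =>
    intro F hF hper h z
    have : F = fun _ => 0 := by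
      funext w
      simpa using h w
    rw [this]
    simp
  | succ n ih =>
    intro F hF hper h
    have hF' : Differentiable ℂ (deriv F) := by
      have := (hF.differentiableOn (s := univ)).deriv isOpen_univ
      exact fun z => (this z (mem_univ z)).differentiableAt univ_mem
    have hper' : ∀ z, deriv F (z + p) = deriv F z := by
      intro z
      have : (fun w => F (w + p)) = F := funext hper
      rw [← deriv_comp_add_const, this]
    have h2 := ih (deriv F) hF' hper' (fun z => by
      have := h z
      rwa [iteratedDeriv_succ'] at this)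
    -- the derivative is constant
    have hc : ∀ z, deriv F z = deriv F 0 := fun z => is_const_of_deriv_eq_zero hF' h2 z 0
    have hlin : ∀ z, F z - deriv F 0 * z = F 0 - deriv F 0 * 0 := by
      intro z
      refine is_const_of_deriv_eq_zero (f := fun z => F z - deriv F 0 * z) (by fun_prop) ?_ z 0
      intro w
      have h1 : HasDerivAt (fun z => F z - deriv F 0 * z) (deriv F w - deriv F 0 * 1) w :=
        (hF w).hasDerivAt.sub ((hasDerivAt_id w).const_mul _)
      rw [h1.deriv, hc w]
      ring
    have h3 := hlin (0 + p)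
    rw [hper 0] at h3
    have h4 : deriv F 0 * p = 0 := by linear_combination -h3
    have h5 : deriv F 0 = 0 := by
      rcases mul_eq_zero.1 h4 with h | h
      · exact h
      · exact absurd h hp
    intro z
    rw [hc z, h5]

/-- NZ-G -/
theorem finOrd : Vale.Agent.P097.NZ.FinOrd := by
  intro R C k hR h0 hper hreal hbd
  obtain ⟨g, hg, hexp⟩ := exists_entire_log R hR h0
  have hgd : Differentiable ℂ g := fun z => (hg z).differentiableAt
  have hre : ∀ z, (g z).re ≤ C * (1 + ‖z‖ ^ k) := by
    intro z
    have h1 := hbd z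
    rw [hexp z, Complex.norm_exp] at h1
    exact Real.exp_le_exp.1 h1
  have hderR : ∀ z, deriv R (z + 2 * Real.pi) = deriv R z := by
    intro z
    have : (fun w => R (w + 2 * Real.pi)) = R := funext hper
    rw [← deriv_comp_add_const, this]
  have hgder : deriv g = fun z => deriv R z / R z := funext fun z => (hg z).deriv
  have hgd' : Differentiable ℂ (deriv g) := by
    have := (hgd.differentiableOn (s := univ)).deriv isOpen_univ
    exact fun z => (this z (mem_univ z)).differentiableAt univ_mem
  have h2pi : (2 * Real.pi : ℂ) ≠ 0 := by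
    have := Real.pi_ne_zero
    simpa using this
  have h2 := deriv_zero_of_periodic (2 * Real.pi) h2pi k (deriv g) hgd'
    (fun z => by rw [hgder]; simp only [hper, hderR]) (fun z => by
      have := iteratedDeriv_zero_of_re_le g hgd C k hre z
      rwa [iteratedDeriv_succ'] at this)
  set a : ℂ := deriv g 0 with ha
  have hc : ∀ z, deriv g z = a := fun z => is_const_of_deriv_eq_zero hgd' h2 z 0
  have hlin : ∀ z, g z = g 0 + a * z := by
    intro z
    have h3 : g z - a * z = g 0 - a * 0 := by
      refine is_const_of_deriv_eq_zero (f := fun z => g z - a * z) (by fun_prop) ?_ z 0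
      intro w
      have h1 : HasDerivAt (fun z => g z - a * z) (deriv g w - a * 1) w :=
        (hgd w).hasDerivAt.sub ((hasDerivAt_id w).const_mul _)
      rw [h1.deriv, hc w]
      ring
    linear_combination h3
  have hR' : ∀ z, R z = R 0 * Complex.exp (a * z) := by
    intro z
    rw [hexp z, hexp 0, hlin z, Complex.exp_add]
  -- the real part of a vanishes
  have hare : a.re = 0 := by
    have h3 := hper 0
    rw [hR' (0 + 2 * Real.pi)] at h3
    have h4 : Complex.exp (a * (0 + 2 * Real.pi)) = 1 := by
      have := h0 0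
      field_simp at h3
      exact h3
    have h5 := congrArg (fun z : ℂ => ‖z‖) h4
    simp only [Complex.norm_exp, norm_one, Real.exp_eq_one_iff] at h5
    have h6 : (a * (0 + 2 * Real.pi)).re = a.re * (2 * Real.pi) := by simp
    rw [h6] at h5
    have := Real.pi_pos
    rcases mul_eq_zero.1 h5 with h | h
    · exact h
    · linarith
  have hR0 : (R 0).im = 0 := by simpa using hreal 0
  have hR0' : (R 0).re ≠ 0 := by
    intro h
    exact h0 0 (Complex.ext (by simpa using h) (by simpa using hR0))
  have haim : a.im = 0 := by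
    by_contra hne
    obtain ⟨t, ht⟩ : ∃ t : ℝ, a.im * t = Real.pi / 2 := ⟨Real.pi / (2 * a.im), by field_simp⟩
    have h3 := hreal t
    rw [hR'] at h3
    have h4 : a * (t : ℂ) = ((Real.pi / 2 : ℝ) : ℂ) * Complex.I := by
      apply Complex.ext
      · rw [Complex.re_mul_ofReal, hare]; simp
      · rw [Complex.im_mul_ofReal, ht]; simp
    rw [h4, Complex.exp_mul_I, ← Complex.ofReal_cos, ← Complex.ofReal_sin, Real.cos_pi_div_two,
      Real.sin_pi_div_two] at h3
    simp [hR0] at h3
    exact hR0' h3
  refine ⟨(R 0).re, fun z => ?_⟩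
  have ha0 : a = 0 := Complex.ext (by simpa using hare) (by simpa using haim)
  rw [hR' z, ha0]
  apply Complex.ext
  · simp
  · simp [hR0]

end Vale.Agent.P097.H870
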